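import Crest.Agent.H4.AF.A9

/-! A hyperplane embedding with a critical point. -/

namespace Crest.Agent.H4.AF

open MvPolynomial

section
variable {T : Type*} [CommRing T]

/-- variables `0 = h, 1 = u, 2 = v, 3 = w` -/
def ex (f : Fin 4 → T) : T := f 1 ^ 3 + f 0 * f 2
def ey (f : Fin 4 → T) : T := -f 1 ^ 2 + f 0 * f 3
def es (f : Fin 4 → T) : T := 2 * f 1 ^ 3 * f 2 + 3 * f 1 ^ 4 * f 3 +
  f 0 * (f 2 ^ 2 - 3 * f 1 ^ 2 * f 3 ^ 2) + f 0 ^ 2 * f 3 ^ 3
def ee (f : Fin 4 → T) : T := f 1 * f 3 + f 2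
def ee2 (f : Fin 4 → T) : T := f 1 * f 2 + 2 * f 1 ^ 2 * f 3 - f 0 * f 3 ^ 2
def eA (s : T) : T := 2 * s ^ 2
def eB (s y : T) : T := 3 * s ^ 3 - 3 * s * y
def co (f : Fin 4 → T) : Fin 4 → T :=
  ![f 0 + eA (es f) * ex f + eB (es f) (ey f) * ey f, ex f + es f ^ 3, ey f - es f ^ 2,
    f 1 + eA (es f) * ee2 f + eB (es f) (ey f) * ee f]

theorem co0 (f : Fin 4 → T) : co f 0 = f 0 + eA (es f) * ex f + eB (es f) (ey f) * ey f := rfl
theorem co1 (f : Fin 4 → T) : co f 1 = ex f + es f ^ 3 := rfl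
theorem co2 (f : Fin 4 → T) : co f 2 = ey f - es f ^ 2 := rfl
theorem co3 (f : Fin 4 → T) : co f 3 = f 1 + eA (es f) * ee2 f + eB (es f) (ey f) * ee f := rfl

theorem map_co {T' F : Type*} [CommRing T'] [FunLike F T T'] [RingHomClass F T T'] (φ : F)
    (f : Fin 4 → T) (i : Fin 4) : φ (co f i) = co (fun i => φ (f i)) i := by
  fin_cases i <;> simp [co, ex, ey, es, ee, ee2, eA, eB, map_ofNat]

theorem i1 (f : Fin 4 → T) : f 0 * es f = ex f ^ 2 + ey f ^ 3 := by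
  simp only [ex, ey, es]; ring
theorem i2 (f : Fin 4 → T) : ey f * f 1 - f 0 * ee f = -ex f := by
  simp only [ex, ey, ee]; ring
theorem i3 (f : Fin 4 → T) : ex f * f 1 - f 0 * ee2 f = ey f ^ 2 := by
  simp only [ex, ey, ee2]; ring
theorem i4 (f : Fin 4 → T) : ex f * ee f - ey f * ee2 f = es f := by
  simp only [ex, ey, ee, ee2, es]; ring
theorem i5 (f : Fin 4 → T) : ey f * f 3 = f 1 * ee f - ee2 f := by
  simp only [ey, ee, ee2]; ring
theorem i6 (f : Fin 4 → T) : ex f * f 3 = ey f * ee f + f 1 * ee2 f := by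
  simp only [ex, ey, ee, ee2]; ring
theorem i7 (f : Fin 4 → T) : co f 0 * es f = co f 1 ^ 2 + co f 2 ^ 3 := by
  rw [co0, co1, co2, eA, eB]; linear_combination i1 f
theorem i8 (f : Fin 4 → T) : co f 0 * f 1 = f 0 * co f 3 + eA (es f) * ey f ^ 2 -
    eB (es f) (ey f) * ex f := by
  rw [co0, co3]; linear_combination eA (es f) * i3 f + eB (es f) (ey f) * i2 f

end

theorem gen4 {V : Type} [CommRing V] [Algebra ℂ V] (f : Fin 4 → V) (U : Subalgebra ℂ V)
    (hU : ∀ a, co f 0 * a ∈ U → a ∈ U) (h : ∀ i, co f i ∈ U) (i : Fin 4) : f i ∈ U := by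
  have h0 := h 0
  have h1 := h 1
  have h2 := h 2
  have h3 := h 3
  have ms : es f ∈ U := hU _ (by rw [i7]; smem)
  have mx : ex f ∈ U := by rw [← sub_eq_of_eq_add (co1 f)]; smem
  have my : ey f ∈ U := by rw [eq_add_of_sub_eq (co2 f).symm]; smem
  have mA : eA (es f) ∈ U := by rw [eA]; smem
  have mB : eB (es f) (ey f) ∈ U := by rw [eB]; smem
  have mh : f 0 ∈ U := by
    rw [show f 0 = co f 0 - eA (es f) * ex f - eB (es f) (ey f) * ey f by rw [co0]; ring]; smem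
  have mu : f 1 ∈ U := hU _ (by rw [i8]; smem)
  have me : ee f ∈ U := hU _ (by
    rw [show co f 0 * ee f = ey f * co f 3 + ex f + eA (es f) * es f by
      rw [co0, co3]; linear_combination eA (es f) * i4 f - i2 f]; smem)
  have me2 : ee2 f ∈ U := hU _ (by
    rw [show co f 0 * ee2 f = ex f * co f 3 - ey f ^ 2 - eB (es f) (ey f) * es f by
      rw [co0, co3]; linear_combination -eB (es f) (ey f) * i4 f - i3 f]; smem)
  have mw : f 3 ∈ U := hU _ (by
    rw [show co f 0 * f 3 = (ey f + f 1 ^ 2) + eA (es f) * (ey f * ee f + f 1 * ee2 f) +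
      eB (es f) (ey f) * (f 1 * ee f - ee2 f) by
        have : f 0 * f 3 = ey f + f 1 ^ 2 := by rw [ey]; ring
        rw [co0, ← i5, ← i6, ← this]; ring]; smem)
  have mv : f 2 ∈ U := by
    rw [show f 2 = ee f - f 1 * f 3 by rw [ee]; ring]; smem
  fin_cases i
  exacts [mh, mu, mv, mw]

noncomputable def pt : Fin 4 → ℂ := ![2, 0, -1 / 2, 1 / 2]

theorem es_pt : es pt = 1 := by simp [es, pt]; norm_num
theorem co_pt0 : co pt 0 = 0 := by rw [co0, es_pt]; simp [eA, eB, ex, ey, pt]; norm_num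
theorem co_pt1 : co pt 1 = 0 := by rw [co1, es_pt]; simp [ex, pt]; norm_num
theorem co_pt2 : co pt 2 = 0 := by rw [co2, es_pt]; simp [ey, pt]

theorem crit {V : Type} [CommRing V] [Algebra ℂ V] (f : Fin 4 → V) (ev : V →+* ℂ)
    (h : ∀ i, ev (f i) = pt i) (δ : Derivation ℂ V V) : ev (δ (co f 0 - 1)) = 0 := by
  have e := congrArg (fun a => ev (δ a)) (i7 f)
  have h1 : ev (es f) = 1 := by rw [← es_pt]; simp [es, h, map_ofNat]
  simp only [Derivation.leibniz, map_add, Derivation.leibniz_pow, smul_eq_mul, map_mul, map_nsmul,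
    map_pow, map_co, funext h, co_pt0, co_pt1, co_pt2, h1] at e
  simpa using e

theorem not_coord {n : ℕ} (f : Fin 4 → MvPolynomial (Fin n) ℂ) (p : Fin n → ℂ)
    (h : ∀ i, eval p (f i) = pt i) {g : MvPolynomial (Fin n) ℂ}
    (hg : g ∈ Algebra.adjoin ℂ {co f 0 - 1}) (k : Fin n) :
    ¬∃ τ : MvPolynomial (Fin n) ℂ ≃ₐ[ℂ] MvPolynomial (Fin n) ℂ, τ g = X k := by
  rintro ⟨τ, hτ⟩
  obtain ⟨δ, hδ⟩ := exists_conj τ (pderiv k)
  have h1 : δ g = 1 := τ.injective (by simp [hδ, hτ])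
  have h2 : eval p (δ g) = 0 := by
    clear h1 hτ
    induction hg using Algebra.adjoin_induction with
    | mem x hx => rw [hx]; exact crit f _ h δ
    | algebraMap r => rw [Derivation.map_algebraMap, map_zero]
    | add x y _ _ hx hy => rw [map_add, map_add, hx, hy, add_zero]
    | mul x y _ _ hx hy => simp [hx, hy]
  simp [h1] at h2

theorem abhyankar : ∃ F : MvPolynomial (Fin 4) ℂ,
    Nonempty ((MvPolynomial (Fin 4) ℂ ⧸ Ideal.span {F}) ≃ₐ[ℂ] MvPolynomial (Fin 3) ℂ) ∧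
    (∃ p : Fin 4 → ℂ, ∀ i : Fin 4, MvPolynomial.eval p (MvPolynomial.pderiv i F) = 0) ∧
    ¬ ∃ τ : MvPolynomial (Fin 4) ℂ ≃ₐ[ℂ] MvPolynomial (Fin 4) ℂ, τ F = MvPolynomial.X 0 := by
  refine ⟨co X 0 - 1, ?_, ⟨pt, fun i => crit X _ (by simp) _⟩,
    not_coord X pt (by simp) (Algebra.self_mem_adjoin_singleton _ _) 0⟩
  set mk := Ideal.Quotient.mkₐ ℂ (Ideal.span {(co X 0 - 1 : MvPolynomial (Fin 4) ℂ)}) with hmk
  have h1 : co (fun i => mk (X i)) 0 = 1 := by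
    rw [← map_co, ← map_one mk, ← sub_eq_zero, ← map_sub]
    exact Ideal.Quotient.eq_zero_iff_mem.2 (Ideal.mem_span_singleton_self _)
  let φ := aeval (R := ℂ) fun i : Fin 3 => co (fun i => mk (X i)) i.succ
  have hs : Function.Surjective φ := fun a => by
    obtain ⟨a, rfl⟩ := Ideal.Quotient.mk_surjective a
    refine mv_top (U := φ.range.comap mk) (gen4 (fun i => mk (X i)) φ.range
      (fun a ha => by rwa [h1, one_mul] at ha) fun i => ?_) a
    refine Fin.cases (h1 ▸ one_mem _) (fun i => ⟨X i, aeval_X _ _⟩) i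
  obtain ⟨K, _, _, _, _, _⟩ : ∃ (K : Type) (_ : Field K) (_ : Algebra ℂ K)
      (_ : Algebra (MvPolynomial (Fin 3) ℂ) K), IsScalarTower ℂ (MvPolynomial (Fin 3) ℂ) K ∧
      IsFractionRing (MvPolynomial (Fin 3) ℂ) K :=
    ⟨FractionRing (MvPolynomial (Fin 3) ℂ), inferInstance, inferInstance, inferInstance,
      inferInstance, inferInstance⟩
  obtain ⟨t, ht⟩ : ∃ t : Fin 3 → K, ∀ i,
    t i = algebraMap (MvPolynomial (Fin 3) ℂ) K (X i) := ⟨_, fun _ => rfl⟩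
  obtain ⟨s, hs'⟩ : ∃ s, s = t 0 ^ 2 + t 1 ^ 3 := ⟨_, rfl⟩
  obtain ⟨x, hx⟩ : ∃ x, x = t 0 - s ^ 3 := ⟨_, rfl⟩
  obtain ⟨y, hy⟩ : ∃ y, y = t 1 + s ^ 2 := ⟨_, rfl⟩
  obtain ⟨h, hh⟩ : ∃ h, h = 1 - eA s * x - eB s y * y := ⟨_, rfl⟩
  have h0 : h ≠ 0 := fun h0 => by
    have : (1 - eA (X 0 ^ 2 + X 1 ^ 3) * (X 0 - (X 0 ^ 2 + X 1 ^ 3) ^ 3) - eB (X 0 ^ 2 + X 1 ^ 3)
      (X 1 + (X 0 ^ 2 + X 1 ^ 3) ^ 2) * (X 1 + (X 0 ^ 2 + X 1 ^ 3) ^ 2) :
        MvPolynomial (Fin 3) ℂ) = 0 := IsFractionRing.injective _ K (by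
      rw [map_zero, ← h0, hh, hx, hy, hs']
      simp only [eA, eB, map_sub, map_add, map_mul, map_pow, map_one, map_ofNat, ht])
    simpa [eA, eB] using congrArg (eval 0) this
  obtain ⟨u, hu⟩ : ∃ u, u = h * t 2 + eA s * y ^ 2 - eB s y * x := ⟨_, rfl⟩
  obtain ⟨v, hv⟩ : ∃ v, h * v = x - u ^ 3 := ⟨_, mul_div_cancel₀ _ h0⟩
  obtain ⟨w, hw⟩ : ∃ w, h * w = y + u ^ 2 := ⟨_, mul_div_cancel₀ _ h0⟩
  have e1 : ex ![h, u, v, w] = x := by simp [ex, hv]
  have e2 : ey ![h, u, v, w] = y := by simp [ey, hw]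
  have e3 : es ![h, u, v, w] = s := mul_left_cancel₀ h0 (by
    have := i1 ![h, u, v, w]
    rw [e1, e2] at this
    refine this.trans ?_
    rw [hh, hx, hy, eA, eB]
    linear_combination -hs')
  have e4 : co ![h, u, v, w] 0 = 1 := by rw [co0, e1, e2, e3]; simp [hh]; ring
  have e5 : ∀ i : Fin 3, co ![h, u, v, w] i.succ = t i := fun i => by
    fin_cases i
    · exact (co1 _).trans (by rw [e1, e3, hx]; simp)
    · exact (co2 _).trans (by rw [e2, e3, hy]; simp)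
    · have := i8 ![h, u, v, w]
      rw [e1, e2, e3, e4] at this
      refine mul_left_cancel₀ h0 ?_
      simp only [Matrix.cons_val_one, Matrix.cons_val_zero] at this
      change h * co ![h, u, v, w] 3 = h * t 2
      linear_combination hu - this
  let ψ := Ideal.Quotient.liftₐ (Ideal.span {(co X 0 - 1 : MvPolynomial (Fin 4) ℂ)})
    (aeval (R := ℂ) ![h, u, v, w]) fun a ha => by
      obtain ⟨q, rfl⟩ := Ideal.mem_span_singleton'.1 ha
      simp [map_co, e4]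
  refine ⟨(AlgEquiv.ofBijective φ ⟨inj_of_gen φ hs ψ fun i => ⟨mk (co X i.succ), ?_⟩, hs⟩).symm⟩
  rw [← ht, ← e5]
  exact (Ideal.Quotient.lift_mk _ _ _).trans (by simp [map_co])

theorem commuting : ∃ F : MvPolynomial (Fin 4) ℂ, ∀ m : ℕ,
    ∃ D : Fin 3 ⊕ Fin m →
        Derivation ℂ (MvPolynomial (Fin (4 + m)) ℂ) (MvPolynomial (Fin (4 + m)) ℂ),
      (∀ i : Fin m, D (Sum.inr i) = MvPolynomial.pderiv (Fin.natAdd 4 i)) ∧
      (∀ a b : Fin 3 ⊕ Fin m, ∀ p : MvPolynomial (Fin (4 + m)) ℂ, D a (D b p) = D b (D a p)) ∧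
      (∀ a : Fin 3 ⊕ Fin m, ∀ p : MvPolynomial (Fin (4 + m)) ℂ, ∃ k : ℕ, (D a)^[k] p = 0) ∧
      LinearIndependent (MvPolynomial (Fin (4 + m)) ℂ) D ∧
      (∀ p : MvPolynomial (Fin (4 + m)) ℂ, (∀ a : Fin 3 ⊕ Fin m, D a p = 0) ↔
        p ∈ Algebra.adjoin ℂ {MvPolynomial.rename (Fin.castAdd m) F}) ∧
      ∀ g : MvPolynomial (Fin (4 + m)) ℂ, (∀ a : Fin 3 ⊕ Fin m, D a g = 0) →
        ¬ ∃ τ : MvPolynomial (Fin (4 + m)) ℂ ≃ₐ[ℂ] MvPolynomial (Fin (4 + m)) ℂ,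
          τ g = MvPolynomial.X (Fin.castAdd m 0) := by
  refine ⟨co X 0 - 1, fun m => ?_⟩
  let f : Fin 4 → MvPolynomial (Fin (4 + m)) ℂ := fun i => X (Fin.castAdd m i)
  let c : Fin (4 + m) → MvPolynomial (Fin (4 + m)) ℂ :=
    Fin.addCases (co f) fun i => X (Fin.natAdd 4 i)
  have c1 : ∀ i, c (Fin.castAdd m i) = co f i := fun i => Fin.addCases_left _
  have c2 : ∀ i, c (Fin.natAdd 4 i) = X (Fin.natAdd 4 i) := fun i => Fin.addCases_right _
  have hF : rename (Fin.castAdd m) (co X 0 - 1 : MvPolynomial (Fin 4) ℂ) = co f 0 - 1 := by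
    simp [map_co, f]
  have hp : ∀ i, eval (Fin.addCases pt fun _ => 0) (f i) = pt i := fun i => by simp [f]
  have h0 : c (Fin.castAdd m 0) ≠ 0 := fun h => by
    have := congrArg (eval (Fin.addCases ![1, 0, 0, 0] fun _ => 0)) h
    rw [c1, map_co] at this
    simp [f, co0, eA, eB, es] at this
  have hu : ¬IsUnit (c (Fin.castAdd m 0)) := fun h => by
    have := h.map (eval (Fin.addCases pt fun _ => 0))
    rw [c1, map_co, funext hp, co_pt0] at this
    exact this.ne_zero rfl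
  have mc : ∀ i, c i ∈ Algebra.adjoin ℂ (Set.range c) := fun i => Algebra.subset_adjoin ⟨i, rfl⟩
  let W : Subalgebra ℂ (MvPolynomial (Fin (4 + m)) ℂ) :=
    { carrier := {a | ∃ N, c (Fin.castAdd m 0) ^ N * a ∈ Algebra.adjoin ℂ (Set.range c)}
      mul_mem' := fun ⟨i, hi⟩ ⟨j, hj⟩ => ⟨i + j, by convert mul_mem hi hj using 1; ring⟩
      add_mem' := fun ⟨i, hi⟩ ⟨j, hj⟩ => ⟨i + j, by
        convert add_mem (mul_mem (pow_mem (mc (Fin.castAdd m 0)) j) hi)
          (mul_mem (pow_mem (mc (Fin.castAdd m 0)) i) hj) using 1; ring⟩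
      algebraMap_mem' := fun r => ⟨0, by smem⟩ }
  have hW : ∀ a, a ∈ W := mv_top fun i => by
    refine Fin.addCases (fun i => gen4 f W ?_ (fun i => ⟨0, ?_⟩) i) (fun i => ⟨0, ?_⟩) i
    · rintro a ⟨N, hN⟩
      exact ⟨N + 1, by rwa [pow_succ, mul_assoc, c1]⟩
    · rw [pow_zero, one_mul, ← c1]; exact mc _
    · rw [pow_zero, one_mul, ← c2]; exact mc _
  have ne : ∀ (i : Fin 4) (j : Fin m), Fin.castAdd m i ≠ Fin.natAdd 4 j := fun i j h => by
    have := congrArg Fin.val h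
    simp at this; omega
  choose N D hD using fun a : Fin 3 => (exists_der c _ h0 hW).2 (Fin.castAdd m a.succ)
    fun h => Fin.succ_ne_zero a (Fin.castAdd_injective _ _ h)
  obtain ⟨r1, r2, r3, r4⟩ := family c _ h0 hu hW
    (Sum.elim D fun i => pderiv (Fin.natAdd 4 i))
    (Sum.elim (fun a => Fin.castAdd m a.succ) (Fin.natAdd 4))
    (Function.Injective.sumElim ((Fin.castAdd_injective _ _).comp (Fin.succ_injective _))
      (Fin.natAdd_injective _ _) fun a b => ne _ _)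
    (by
      rintro (a | a)
      · exact fun h => Fin.succ_ne_zero a (Fin.castAdd_injective _ _ h)
      · exact (ne _ _).symm)
    (fun j => Fin.addCases (fun i => Fin.cases (fun h => absurd rfl h)
      (fun i _ => ⟨Sum.inl i, rfl⟩) i) (fun i _ => ⟨Sum.inr i, rfl⟩) j)
    (Sum.elim N fun _ => 0) (by
      rintro (a | a) k
      · exact hD a k
      · refine Fin.addCases (fun i => ?_) (fun i => ?_) k
        · have : co f i ∈ Algebra.adjoin ℂ (Set.range f) := by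
            rw [Algebra.adjoin_range_eq_range_aeval]
            exact ⟨co X i, by simp [map_co]⟩
          rw [c1, Sum.elim_inr, Sum.elim_inr, if_neg (ne _ _)]
          exact Derivation.eqOn_adjoin (D2 := 0) (by
            rintro _ ⟨j, rfl⟩
            exact pderiv_X_of_ne (ne _ _)) this
        · simp [c2, Pi.single_apply])
  have hadj : Algebra.adjoin ℂ {c (Fin.castAdd m 0)} = Algebra.adjoin ℂ {co f 0 - 1} := by
    rw [c1]
    apply le_antisymm <;> apply Algebra.adjoin_singleton_le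
    · simpa using add_mem (Algebra.self_mem_adjoin_singleton ℂ (co f 0 - 1)) (one_mem _)
    · exact sub_mem (Algebra.self_mem_adjoin_singleton _ _) (one_mem _)
  rw [hadj] at r4
  exact ⟨_, fun _ => rfl, r1, r2, r3, hF ▸ r4, fun g hg => not_coord f _ hp ((r4 g).1 hg) _⟩

end Crest.Agent.H4.AF
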