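import Crest.Agent.H4.AF.A7

/-! A stable coordinate that is not a coordinate. -/

namespace Crest.Agent.H4.AF

open Polynomial

theorem hopf {R : Type*} [CommRing R] [IsNoetherianRing R] (ρ : R →+* R)
    (h : Function.Surjective ρ) : Function.Injective ρ := by
  obtain ⟨n, hn⟩ := monotone_stabilizes_iff_noetherian.2 (inferInstance : IsNoetherian R R)
    ⟨fun n => RingHom.ker (ρ ^ n), monotone_nat_of_le_succ fun n a ha => by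
      rw [RingHom.mem_ker] at ha ⊢
      rw [pow_succ', RingHom.mul_def, RingHom.comp_apply, ha, map_zero]⟩
  rw [injective_iff_map_eq_zero]
  intro a ha
  obtain ⟨b, rfl⟩ : ∃ b, (ρ ^ n) b = a := by
    rw [RingHom.coe_pow]; exact h.iterate n a
  have : b ∈ RingHom.ker (ρ ^ (n + 1)) := by
    rw [RingHom.mem_ker, pow_succ', RingHom.mul_def, RingHom.comp_apply, ha]
  have e := hn (n + 1) (by omega)
  simp only [OrderHom.coe_mk] at e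
  rwa [← e] at this

theorem quot_iso {A B : Type} [CommRing A] [Algebra ℂ A] [CommRing B] [Algebra ℂ B] (f : A)
    (χ : A →ₐ[ℂ] B) (ι : B →ₐ[ℂ] A) (h1 : χ.comp ι = AlgHom.id ℂ B) (h2 : χ f = 0)
    (h3 : ∀ a, Ideal.Quotient.mkₐ ℂ (Ideal.span {f}) a ∈
      ((Ideal.Quotient.mkₐ ℂ (Ideal.span {f})).comp ι).range) :
    Nonempty ((A ⧸ Ideal.span {f}) ≃ₐ[ℂ] B) := by
  refine ⟨(AlgEquiv.ofBijective ((Ideal.Quotient.mkₐ ℂ (Ideal.span {f})).comp ι) ⟨?_, ?_⟩).symm⟩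
  · rw [injective_iff_map_eq_zero]
    intro b hb
    obtain ⟨q, hq⟩ := Ideal.mem_span_singleton'.1 (Ideal.Quotient.eq_zero_iff_mem.1 hb)
    have e := congrArg χ hq
    rw [map_mul, h2, mul_zero] at e
    exact (DFunLike.congr_fun h1 b).symm.trans e.symm
  · intro a
    obtain ⟨a, rfl⟩ := Ideal.Quotient.mk_surjective a
    exact h3 a

section
variable {V : Type} [CommRing V] [Algebra ℂ V]

theorem mem_of_mul {U : Subalgebra ℂ V} {c : ℂ} (hc : c ≠ 0) {a : V}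
    (h : algebraMap ℂ V c * a ∈ U) : a ∈ U := by
  have := mul_mem (U.algebraMap_mem c⁻¹) h
  rwa [← mul_assoc, ← map_mul, inv_mul_cancel₀ hc, map_one, one_mul] at this

theorem gen5b (u p s x F J w : V) (h1 : p * F = x - s ^ 2 + u ^ 2)
    (h2 : x ^ 2 * F - (1 + 2 * s * x) * J - p * J ^ 2 = u) :
    ∃ g₁ g₂ g₃ g₄ : V, ∀ U : Subalgebra ℂ V, p ∈ U → g₁ ∈ U → g₂ ∈ U → g₃ ∈ U → g₄ ∈ U →
      u ∈ U ∧ p ∈ U ∧ s ∈ U ∧ x ∈ U ∧ F ∈ U ∧ J ∈ U ∧ w ∈ U := by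
  obtain ⟨ω, hω⟩ : ∃ ω, ω = u + p * w := ⟨_, rfl⟩
  obtain ⟨κ, hκ⟩ : ∃ κ, κ = -w * (ω + u) := ⟨_, rfl⟩
  have hk : ω ^ 2 = u ^ 2 - p * κ := by rw [hκ, hω]; ring
  obtain ⟨s1, hs⟩ : ∃ s1, s1 = s + p * x * κ := ⟨_, rfl⟩
  obtain ⟨F1, hF⟩ : ∃ F1, F1 = F - κ * (1 + x * (s1 + s)) := ⟨_, rfl⟩
  obtain ⟨J1, hJ⟩ : ∃ J1, J1 = J - x ^ 2 * κ := ⟨_, rfl⟩
  have hx : x = s1 ^ 2 - ω ^ 2 + p * F1 := by
    rw [hF, hk, hs]; linear_combination -h1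
  have hH : x ^ 2 * F1 - (1 + 2 * s1 * x) * J1 - p * J1 ^ 2 = ω - p * w := by
    rw [hF, hJ, hs, hω]; linear_combination h2
  obtain ⟨x0, hx0⟩ : ∃ x0, x0 = s1 ^ 2 - ω ^ 2 := ⟨_, rfl⟩
  obtain ⟨h0, hh0⟩ : ∃ h0, h0 = x0 ^ 2 * F1 - (1 + 2 * s1 * x0) * J1 := ⟨_, rfl⟩
  obtain ⟨v, hv⟩ : ∃ v, v = (1 - 2 * s1 * x0) * F1 + 4 * s1 ^ 2 * J1 := ⟨_, rfl⟩
  have hF1 : F1 = 4 * s1 ^ 2 * h0 + (1 + 2 * s1 * x0) * v := by rw [hh0, hv]; ring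
  have hJ1 : J1 = -(1 - 2 * s1 * x0) * h0 + x0 ^ 2 * v := by rw [hh0, hv]; ring
  obtain ⟨M, hM⟩ : ∃ M, M = 2 * x0 * F1 ^ 2 + p * F1 ^ 3 - 2 * s1 * F1 * J1 - J1 ^ 2 := ⟨_, rfl⟩
  have e : h0 = ω - p * (w + M) := by
    rw [← hx0] at hx
    rw [hx] at hH
    rw [hh0, hM]; linear_combination hH
  refine ⟨s1, ω, v, w + M, fun U mp ms mω mv mw => ?_⟩
  have : x0 ∈ U := by rw [hx0]; smem
  have : h0 ∈ U := by rw [e]; smem
  have : F1 ∈ U := by rw [hF1]; smem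
  have : J1 ∈ U := by rw [hJ1]; smem
  have : M ∈ U := by rw [hM]; smem
  have : w ∈ U := by simpa using sub_mem mw this
  have : x ∈ U := by rw [hx]; smem
  have : u ∈ U := by rw [← sub_eq_of_eq_add hω]; smem
  have : κ ∈ U := by rw [hκ]; smem
  have : s ∈ U := by rw [← sub_eq_of_eq_add hs]; smem
  refine ⟨by smem, mp, by smem, by smem, ?_, ?_, by smem⟩
  · rw [eq_add_of_sub_eq hF.symm]; smem
  · rw [eq_add_of_sub_eq hJ.symm]; smem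

theorem param (r s0 F0 u0 : V) : ∃ u p s x F J : V, x - s ^ 2 + u ^ 2 = p * F ∧
    x ^ 2 * F - (1 + 2 * s * x) * J - p * J ^ 2 = u ∧
    ∀ U : Subalgebra ℂ V, u ∈ U → p ∈ U → s ∈ U → x ∈ U → F ∈ U → J ∈ U →
      r ∈ U ∧ s0 ∈ U ∧ F0 ∈ U ∧ u0 ∈ U := by
  obtain ⟨x, hx⟩ : ∃ x, x = s0 ^ 2 - u0 ^ 2 + r * F0 := ⟨_, rfl⟩
  obtain ⟨a, ha⟩ : ∃ a, a = x * (s0 + u0) + r * u0 := ⟨_, rfl⟩
  obtain ⟨G, hG⟩ : ∃ G, G = x ^ 2 * F0 - 2 * x * s0 * u0 - r * u0 ^ 2 := ⟨_, rfl⟩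
  refine ⟨G - u0, r - 2 * x * a, s0 + 2 * a * u0 + G, x,
    F0 * (1 + 2 * x * u0) - 2 * s0 * u0 ^ 2 + 2 * u0 ^ 3, u0, by rw [hG, ha, hx]; ring,
    by rw [hG, ha, hx]; ring, fun U mu mp ms mx mF mJ => ?_⟩
  have : a ∈ U := by
    convert (show (s0 + 2 * a * u0 + G) * x + (r - 2 * x * a) * u0 - x * (G - u0) ∈ U by smem)
      using 1
    rw [ha]; ring
  have : r ∈ U := by
    convert (show (r - 2 * x * a) + 2 * x * a ∈ U by smem) using 1; ring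
  have : G ∈ U := by simpa using add_mem mu mJ
  have : s0 ∈ U := by
    convert (show (s0 + 2 * a * u0 + G) - 2 * a * u0 - G ∈ U by smem) using 1; ring
  refine ⟨by smem, by smem, ?_, mJ⟩
  convert (show 4 * u0 ^ 2 * (G + 2 * x * s0 * u0 + r * u0 ^ 2) + (1 - 2 * x * u0) *
    ((F0 * (1 + 2 * x * u0) - 2 * s0 * u0 ^ 2 + 2 * u0 ^ 3) + 2 * s0 * u0 ^ 2 - 2 * u0 ^ 3) ∈ U
    by smem) using 1
  rw [hG]; ring

end

local notation "A₂" => Q 0 2 (-1) 1 1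
local notation "g₂" => gen 0 2 (-1) 1 1

theorem rel1 : g₂ 1 * Ff g₂ = g₂ 3 - g₂ 2 ^ 2 + g₂ 0 ^ 2 := by
  simpa using gen_F (d := 0) (b := 2) (ε := -1) 1 1

theorem rel2 : g₂ 3 ^ 2 * Ff g₂ - (1 + 2 * g₂ 2 * g₂ 3) * Jf g₂ - g₂ 1 * Jf g₂ ^ 2 = g₂ 0 := by
  simpa using gen_H (d := 0) (b := 2) (ε := -1) 1 1

theorem exists_iso : ∃ (e : A₂ ≃ₐ[ℂ] MvPolynomial (Fin 4) ℂ)
    (σ : (MvPolynomial (Fin 4) ℂ)[X] ≃ₐ[ℂ] (MvPolynomial (Fin 4) ℂ)[X]),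
      σ (C (e (g₂ 1))) = C (MvPolynomial.X 0) := by
  obtain ⟨u, p, s, x, F, J, h1, h2, hU⟩ := param (V := MvPolynomial (Fin 4) ℂ) (MvPolynomial.X 0)
    (MvPolynomial.X 1) (MvPolynomial.X 2) (MvPolynomial.X 3)
  obtain ⟨χ, c0, c1, c2, c3, cF, cJ⟩ := exists_lift' (d := 0) (b := 2) (ε := -1) (m := 1) (l := 1)
    u p s x F J (by simpa using h1) (by simpa using h2)
  have hχ : Function.Surjective χ := mv_top (U := χ.range) fun i => by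
    obtain ⟨m0, m1, m2, m3⟩ := hU χ.range ⟨_, c0⟩ ⟨_, c1⟩ ⟨_, c2⟩ ⟨_, c3⟩ ⟨_, cF⟩ ⟨_, cJ⟩
    fin_cases i
    exacts [m0, m1, m2, m3]
  have e1 := congrArg C rel1
  have e2 := congrArg C rel2
  simp only [map_mul, map_sub, map_add, map_pow, map_one, map_ofNat] at e1 e2
  obtain ⟨a₁, a₂, a₃, a₄, hg⟩ := gen5b _ _ _ _ _ _ X e1 e2
  let φ : (MvPolynomial (Fin 4) ℂ)[X] →ₐ[ℂ] A₂[X] :=
    eval₂AlgHom (MvPolynomial.aeval ![C (g₂ 1), a₁, a₂, a₃]) a₄ fun _ => Commute.all _ _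
  have hφ : Function.Surjective φ := poly_top (U := φ.range) (hg _
    ⟨C (MvPolynomial.X 0), by simp [φ]⟩ ⟨C (MvPolynomial.X 1), by simp [φ]⟩
    ⟨C (MvPolynomial.X 2), by simp [φ]⟩ ⟨C (MvPolynomial.X 3), by simp [φ]⟩ ⟨X, by simp [φ]⟩)
  have hs : Function.Surjective ((mapAlgHom χ).comp φ) :=
    (Polynomial.map_surjective χ.toRingHom hχ).comp hφ
  have hi : Function.Injective ((mapAlgHom χ).comp φ) := hopf ((mapAlgHom χ).comp φ).toRingHom hs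
  have hi' : Function.Injective (mapAlgHom χ) := Function.Injective.of_comp_right hi hφ
  refine ⟨AlgEquiv.ofBijective χ ⟨fun a b h => C_injective (hi' (by simp [h])), hχ⟩,
    (AlgEquiv.ofBijective _ ⟨hi, hs⟩).symm, ?_⟩
  rw [AlgEquiv.symm_apply_eq]
  simp [φ]

theorem fibres (c : ℂ) : Nonempty ((A₂ ⧸ Ideal.span {g₂ 1 - algebraMap ℂ _ c}) ≃ₐ[ℂ]
    MvPolynomial (Fin 3) ℂ) := by
  set mk := Ideal.Quotient.mkₐ ℂ (Ideal.span {g₂ 1 - algebraMap ℂ _ c}) with hmk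
  have hp : mk (g₂ 1) = algebraMap ℂ _ c := by
    rw [← mk.commutes, ← sub_eq_zero, ← map_sub]
    exact Ideal.Quotient.eq_zero_iff_mem.2 (Ideal.mem_span_singleton_self _)
  have e1 := congrArg mk rel1
  have e2 := congrArg mk rel2
  simp only [map_mul, map_sub, map_add, map_pow, map_one, map_ofNat, hp] at e1 e2
  by_cases hc : c = 0
  · obtain ⟨χ, hχ⟩ := exists_lift (d := 0) (b := 2) (ε := -1) (m := 1) (l := 1)
      (T := MvPolynomial (Fin 3) ℂ) ![MvPolynomial.X 1, 0, MvPolynomial.X 0,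
        MvPolynomial.X 0 ^ 2 - MvPolynomial.X 1 ^ 2, MvPolynomial.X 1, MvPolynomial.X 2]
      (by simp [r1]) (by simp [r2])
    refine quot_iso _ χ (MvPolynomial.aeval ![g₂ 2, g₂ 0, g₂ 5])
      (MvPolynomial.algHom_ext fun i => ?_) (by simp [hχ, hc]) ?_
    · fin_cases i <;> simp [hχ]
    · rw [← hmk]
      set U := (mk.comp (MvPolynomial.aeval ![g₂ 2, g₂ 0, g₂ 5])).range
      have m2 : mk (g₂ 2) ∈ U := ⟨MvPolynomial.X 0, by simp⟩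
      have m0 : mk (g₂ 0) ∈ U := ⟨MvPolynomial.X 1, by simp⟩
      have m5 : mk (g₂ 5) ∈ U := ⟨MvPolynomial.X 2, by simp⟩
      have h0 : algebraMap ℂ (A₂ ⧸ Ideal.span {g₂ 1 - algebraMap ℂ _ c}) c = 0 :=
        (congrArg _ hc).trans (map_zero _)
      rw [h0] at e1 e2 hp
      refine Q_top (U := U.comap mk) fun i => ?_
      fin_cases i
      · exact m0
      · exact (hp ▸ zero_mem U : mk (g₂ 1) ∈ U)
      · exact m2
      · change mk (g₂ 3) ∈ U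
        rw [show mk (g₂ 3) = mk (g₂ 2) ^ 2 - mk (g₂ 0) ^ 2 by linear_combination -e1]; smem
      · change mk (g₂ 4) ∈ U
        rw [h_eq g₂]
        simp only [map_mul, map_sub, map_add, map_pow, map_one, map_ofNat]
        convert m0 using 1
        linear_combination e2
      · exact m5
  · obtain ⟨q, hq⟩ : ∃ q : MvPolynomial (Fin 3) ℂ, algebraMap ℂ _ c * q = 1 :=
      ⟨algebraMap ℂ _ c⁻¹, by rw [← map_mul, mul_inv_cancel₀ hc, map_one]⟩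
    obtain ⟨t, ht⟩ : ∃ t : Fin 3 → MvPolynomial (Fin 3) ℂ, t = MvPolynomial.X := ⟨_, rfl⟩
    obtain ⟨u, hu⟩ : ∃ u, u = q * (t 0 * t 1 - t 2 * (t 2 + 1)) := ⟨_, rfl⟩
    obtain ⟨s, hs⟩ : ∃ s, s = t 1 - t 0 * (t 0 + u ^ 2) := ⟨_, rfl⟩
    obtain ⟨χ, c0, c1, c2, c3, cF, cJ⟩ := exists_lift' (d := 0) (b := 2) (ε := -1) (m := 1)
      (l := 1) u (algebraMap ℂ _ c) s (t 0) (q * (t 0 - s ^ 2 + u ^ 2)) (q * (t 2 - s * t 0))
      (by push_cast; linear_combination -(t 0 - s ^ 2 + u ^ 2) * hq)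
      (by push_cast; linear_combination -q * (t 2 - s * t 0) ^ 2 * hq - hu + q * t 0 * hs)
    refine quot_iso _ χ (MvPolynomial.aeval ![g₂ 3, g₂ 2 + g₂ 3 * (g₂ 3 + g₂ 0 ^ 2),
      g₂ 2 * g₂ 3 + g₂ 1 * Jf g₂]) (MvPolynomial.algHom_ext fun i => ?_) (by simp [c1]) ?_
    · rw [AlgHom.id_apply]
      refine Eq.trans ?_ (congrFun ht i)
      fin_cases i
      · simp [c3]
      · simp [c0, c2, c3, hs]
      · simp only [AlgHom.comp_apply, MvPolynomial.aeval_X]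
        change χ (g₂ 2 * g₂ 3 + g₂ 1 * Jf g₂) = t 2
        rw [map_add, map_mul, map_mul, c1, c2, c3, cJ]
        linear_combination (t 2 - s * t 0) * hq
    · rw [← hmk]
      set U := (mk.comp (MvPolynomial.aeval ![g₂ 3, g₂ 2 + g₂ 3 * (g₂ 3 + g₂ 0 ^ 2),
        g₂ 2 * g₂ 3 + g₂ 1 * Jf g₂])).range
      have mx : mk (g₂ 3) ∈ U := ⟨MvPolynomial.X 0, by simp⟩
      obtain ⟨y, my, hy⟩ : ∃ y ∈ U, y = mk (g₂ 2) + mk (g₂ 3) * (mk (g₂ 3) + mk (g₂ 0) ^ 2) :=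
        ⟨_, ⟨MvPolynomial.X 1, rfl⟩, by simp⟩
      obtain ⟨z, mz, hz⟩ : ∃ z ∈ U, z = mk (g₂ 2) * mk (g₂ 3) + algebraMap ℂ _ c * mk (Jf g₂) :=
        ⟨_, ⟨MvPolynomial.X 2, rfl⟩, by simp [← hp]⟩
      have mu : mk (g₂ 0) ∈ U := mem_of_mul hc (by
        convert (show mk (g₂ 3) * y - z * (z + 1) ∈ U by smem) using 1
        rw [hy, hz]
        linear_combination -algebraMap ℂ _ c * e2 + mk (g₂ 3) ^ 2 * e1)
      have ms : mk (g₂ 2) ∈ U := by rw [← sub_eq_of_eq_add hy]; smem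
      exact Q_ind' (p := fun a => mk a ∈ U) (fun c => by rw [AlgHom.commutes]; smem) mu
        (by rw [hp]; smem) ms mx (mem_of_mul hc (by rw [e1]; smem))
        (mem_of_mul hc (by rw [← sub_eq_of_eq_add' hz]; smem))
        (fun _ _ h h' => by rw [map_add]; smem) fun _ _ h h' => by rw [map_mul]; smem

theorem stable_coord : ∃ f : MvPolynomial (Fin 4) ℂ,
    (∃ σ : Polynomial (MvPolynomial (Fin 4) ℂ) ≃ₐ[ℂ] Polynomial (MvPolynomial (Fin 4) ℂ),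
        σ (Polynomial.C f) = Polynomial.C (MvPolynomial.X 0)) ∧
    (¬ ∃ τ : MvPolynomial (Fin 4) ℂ ≃ₐ[ℂ] MvPolynomial (Fin 4) ℂ, τ f = MvPolynomial.X 0) ∧
    ∀ c : ℂ, Nonempty ((MvPolynomial (Fin 4) ℂ ⧸ Ideal.span {f - MvPolynomial.C c}) ≃ₐ[ℂ]
      MvPolynomial (Fin 3) ℂ) := by
  obtain ⟨e, σ, h⟩ := exists_iso
  refine ⟨e (g₂ 1), ⟨σ, h⟩, fun ⟨τ, hτ⟩ => no_coords (by norm_num) le_rfl (e.trans τ) (Or.inl hτ),
    fun c => ?_⟩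
  obtain ⟨e'⟩ := fibres c
  refine ⟨(Ideal.quotientEquivAlg _ _ e ?_).symm.trans e'⟩
  rw [Ideal.map_span, Set.image_singleton]
  simp

end Crest.Agent.H4.AF
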