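import Crest.Agent.H4.AF.A8

/-! Commuting locally nilpotent derivations from a system of rational coordinates. -/

namespace Crest.Agent.H4.AF

open MvPolynomial nonZeroDivisors

theorem indep_of_frac {n : ℕ} {K : Type} [Field K] [Algebra ℂ K]
    [Algebra (MvPolynomial (Fin n) ℂ) K] [IsScalarTower ℂ (MvPolynomial (Fin n) ℂ) K]
    [IsFractionRing (MvPolynomial (Fin n) ℂ) K] (g : Fin n → K)
    (h : ∀ c : K, ∃ a ∈ Algebra.adjoin ℂ (Set.range g), ∃ b ∈ Algebra.adjoin ℂ (Set.range g),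
      b ≠ 0 ∧ c * b = a) : AlgebraicIndependent ℂ g := by
  haveI := ZL.isFrac_of (Algebra.adjoin ℂ (Set.range g)) h
  haveI : Algebra.IsAlgebraic (Algebra.adjoin ℂ (Set.range g)) K :=
    IsLocalization.isAlgebraic K (Algebra.adjoin ℂ (Set.range g))⁰
  haveI : Algebra.IsAlgebraic (MvPolynomial (Fin n) ℂ) K :=
    IsLocalization.isAlgebraic K (MvPolynomial (Fin n) ℂ)⁰
  have h2 := trdeg_add_eq ℂ (MvPolynomial (Fin n) ℂ) (A := K)
  rw [trdeg_eq_zero (R := MvPolynomial (Fin n) ℂ) (A := K), add_zero,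
    MvPolynomial.trdeg_of_isDomain] at h2
  exact (Algebra.IsAlgebraic.isTranscendenceBasis_of_lift_le_trdeg_of_finite ℂ g
    (by rw [← h2]; simp)).1

theorem exists_eta {n : ℕ} {K : Type} [Field K] [Algebra ℂ K] (g : Fin n → K)
    (hg : AlgebraicIndependent ℂ g)
    (h : ∀ c : K, ∃ a ∈ Algebra.adjoin ℂ (Set.range g), ∃ b ∈ Algebra.adjoin ℂ (Set.range g),
      b ≠ 0 ∧ c * b = a) (t : Fin n → K) : ∃ η : Derivation ℂ K K, ∀ i, η (g i) = t i := by
  letI : Algebra (MvPolynomial (Fin n) ℂ) K := (aeval (R := ℂ) g).toRingHom.toAlgebra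
  have e : ∀ a, algebraMap (MvPolynomial (Fin n) ℂ) K a = aeval g a := fun _ => rfl
  haveI : IsScalarTower ℂ (MvPolynomial (Fin n) ℂ) K :=
    IsScalarTower.of_algebraMap_eq fun c => by rw [e, AlgHom.commutes]
  haveI : FaithfulSMul (MvPolynomial (Fin n) ℂ) K :=
    (faithfulSMul_iff_algebraMap_injective _ _).2 hg
  haveI : IsFractionRing (MvPolynomial (Fin n) ℂ) K := IsFractionRing.of_field _ _ fun c => by
    obtain ⟨a, ha, b, hb, hb0, h⟩ := h c
    rw [Algebra.adjoin_range_eq_range_aeval] at ha hb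
    obtain ⟨a, rfl⟩ := ha
    obtain ⟨b, rfl⟩ := hb
    exact ⟨a, b, eq_div_of_mul_eq hb0 h⟩
  haveI := Algebra.FormallyEtale.of_isLocalization (Rₘ := K) (MvPolynomial (Fin n) ℂ)⁰
  obtain ⟨η, hη⟩ := ZL.extend_der (S := MvPolynomial (Fin n) ℂ) (T := K) (mkDerivation ℂ t)
  exact ⟨η, fun i => by rw [← mkDerivation_X ℂ t i, ← hη, e, aeval_X]⟩

theorem exists_der {n : ℕ} (c : Fin n → MvPolynomial (Fin n) ℂ) (o : Fin n) (h0 : c o ≠ 0)
    (hW : ∀ a, ∃ N, c o ^ N * a ∈ Algebra.adjoin ℂ (Set.range c)) :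
    AlgebraicIndependent ℂ c ∧ ∀ j, j ≠ o → ∃ (N : ℕ)
      (D : Derivation ℂ (MvPolynomial (Fin n) ℂ) (MvPolynomial (Fin n) ℂ)),
      ∀ k, D (c k) = if k = j then c o ^ N else 0 := by
  obtain ⟨K, _, _, _, _, _⟩ : ∃ (K : Type) (_ : Field K) (_ : Algebra ℂ K)
      (_ : Algebra (MvPolynomial (Fin n) ℂ) K), IsScalarTower ℂ (MvPolynomial (Fin n) ℂ) K ∧
      IsFractionRing (MvPolynomial (Fin n) ℂ) K :=
    ⟨FractionRing (MvPolynomial (Fin n) ℂ), inferInstance, inferInstance, inferInstance,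
      inferInstance, inferInstance⟩
  let ι := IsScalarTower.toAlgHom ℂ (MvPolynomial (Fin n) ℂ) K
  have inj : Function.Injective ι := IsFractionRing.injective (MvPolynomial (Fin n) ℂ) K
  have hm : ∀ a ∈ Algebra.adjoin ℂ (Set.range c), ι a ∈ Algebra.adjoin ℂ (Set.range (ι ∘ c)) :=
    fun a ha => by
      rw [Set.range_comp, ← AlgHom.map_adjoin]
      exact ⟨a, ha, rfl⟩
  have co : c o ∈ Algebra.adjoin ℂ (Set.range c) := Algebra.subset_adjoin ⟨o, rfl⟩
  have hfr : ∀ z : K, ∃ a ∈ Algebra.adjoin ℂ (Set.range (ι ∘ c)),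
      ∃ b ∈ Algebra.adjoin ℂ (Set.range (ι ∘ c)), b ≠ 0 ∧ z * b = a := fun z => by
    obtain ⟨a, b, hb, rfl⟩ := IsFractionRing.div_surjective (A := MvPolynomial (Fin n) ℂ) z
    obtain ⟨N, hN⟩ := hW a
    obtain ⟨M, hM⟩ := hW b
    have hb0 : ι b ≠ 0 := IsFractionRing.to_map_ne_zero_of_mem_nonZeroDivisors (K := K) hb
    have hc0 : ι (c o) ≠ 0 := (map_ne_zero_iff _ inj).2 h0
    refine ⟨_, hm _ (mul_mem hN (pow_mem co M)), _, hm _ (mul_mem hM (pow_mem co N)), ?_, ?_⟩
    · simp only [map_mul, map_pow]; positivity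
    · simp only [map_mul, map_pow]
      change ι a / ι b * _ = _
      field_simp
  have hind := indep_of_frac _ hfr
  refine ⟨hind.of_comp ι, fun j hj => ?_⟩
  obtain ⟨η, hη⟩ := exists_eta _ hind hfr fun k => if k = j then 1 else 0
  have hη0 : η (ι (c o)) = 0 := (hη o).trans (if_neg hj.symm)
  have h1 : ∀ a ∈ Algebra.adjoin ℂ (Set.range c), η (ι a) ∈ ι.range := fun a ha => by
    induction ha using Algebra.adjoin_induction with
    | mem x hx =>
      obtain ⟨k, rfl⟩ := hx
      have := hη k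
      rw [Function.comp_apply] at this
      rw [this]
      split_ifs <;> smem
    | algebraMap r => rw [AlgHom.commutes, Derivation.map_algebraMap]; smem
    | add x y _ _ hx hy => rw [map_add, map_add]; smem
    | mul x y _ _ hx hy =>
      rw [map_mul, Derivation.leibniz, smul_eq_mul, smul_eq_mul]
      exact add_mem (mul_mem ⟨x, rfl⟩ hy) (mul_mem ⟨y, rfl⟩ hx)
  choose N hN using fun k => hW (X k)
  obtain ⟨M, hM⟩ := (Set.finite_range N).bddAbove
  have h2 : ∀ k, ∃ r, ι r = ι (c o) ^ M * η (ι (X k)) := fun k => by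
    obtain ⟨e, he⟩ := Nat.exists_eq_add_of_le' (hM ⟨k, rfl⟩)
    obtain ⟨r, hr⟩ := h1 _ (hN k)
    rw [map_mul, map_pow, Derivation.leibniz, Derivation.leibniz_pow, hη0] at hr
    refine ⟨c o ^ e * r, ?_⟩
    rw [map_mul, map_pow, he, pow_add, mul_assoc]
    simpa using Or.inl hr
  choose r hr using h2
  have h3 : ∀ a, ι (mkDerivation ℂ r a) = ι (c o) ^ M * η (ι a) := fun a => by
    induction a using MvPolynomial.induction_on with
    | C a =>
      rw [derivation_C, ← algebraMap_eq, AlgHom.commutes, Derivation.map_algebraMap]; simp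
    | add p q hp hq => simp only [map_add, hp, hq, mul_add]
    | mul_X p k hp =>
      simp only [Derivation.leibniz, smul_eq_mul, map_add, map_mul, hp, mkDerivation_X, hr]
      ring
  refine ⟨M, mkDerivation ℂ r, fun k => inj ?_⟩
  have := hη k
  rw [Function.comp_apply] at this
  rw [h3, this]
  split_ifs <;> simp

theorem mem_adjoin_of_pderiv {n : ℕ} (o : Fin n) (q : MvPolynomial (Fin n) ℂ)
    (h : ∀ j, j ≠ o → pderiv j q = 0) : q ∈ Algebra.adjoin ℂ {(X o : MvPolynomial (Fin n) ℂ)} := by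
  rw [← Set.image_singleton, ← supported_eq_adjoin_X, mem_supported]
  intro j hj
  by_contra hne
  obtain ⟨m, hm, hj⟩ := (mem_vars j).1 hj
  have e := coeff_pderiv (i := j) q (m - Finsupp.single j 1)
  rw [h j hne, Finsupp.sub_add_single_one_cancel (Finsupp.mem_support_iff.1 hj), coeff_zero,
    eq_comm, mul_eq_zero] at e
  exact e.elim (mem_support_iff.1 hm) (Nat.cast_add_one_ne_zero _)

theorem family {n : ℕ} {ι : Type} [Fintype ι] [DecidableEq ι] (c : Fin n → MvPolynomial (Fin n) ℂ) (o : Fin n)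
    (h0 : c o ≠ 0) (hu : ¬IsUnit (c o))
    (hW : ∀ a, ∃ N, c o ^ N * a ∈ Algebra.adjoin ℂ (Set.range c))
    (D : ι → Derivation ℂ (MvPolynomial (Fin n) ℂ) (MvPolynomial (Fin n) ℂ)) (e : ι → Fin n)
    (he : Function.Injective e) (he0 : ∀ a, e a ≠ o) (he1 : ∀ j, j ≠ o → ∃ a, e a = j)
    (N : ι → ℕ) (hD : ∀ a k, D a (c k) = if k = e a then c o ^ N a else 0) :
    (∀ a b p, D a (D b p) = D b (D a p)) ∧ (∀ a p, ∃ k : ℕ, (D a)^[k] p = 0) ∧
      LinearIndependent (MvPolynomial (Fin n) ℂ) D ∧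
      ∀ p, (∀ a, D a p = 0) ↔ p ∈ Algebra.adjoin ℂ {c o} := by
  have d0 : ∀ a, D a (c o) = 0 := fun a => (hD a o).trans (if_neg (he0 a).symm)
  have d1 : ∀ a M, D a (c o ^ M) = 0 := fun a M => by rw [Derivation.leibniz_pow, d0]; simp
  have d2 : ∀ a b k, D a (D b (c k)) = 0 := fun a b k => by
    rw [hD]; split_ifs
    · exact d1 _ _
    · exact map_zero _
  have d3 : ∀ a M p, D a (c o ^ M * p) = c o ^ M * D a p := fun a M p => by
    rw [Derivation.leibniz, d1]; simp
  refine ⟨fun a b p => ?_, fun a p => ?_, ?_, fun p => ⟨fun hp => ?_, fun hp a => ?_⟩⟩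
  · obtain ⟨M, hM⟩ := hW p
    have := Derivation.eqOn_adjoin (D1 := ⁅D a, D b⁆) (D2 := 0) (by
      rintro _ ⟨k, rfl⟩
      simp [Derivation.commutator_apply, d2]) hM
    rw [Derivation.commutator_apply, d3, d3, d3, d3, ← mul_sub] at this
    exact sub_eq_zero.1 ((mul_eq_zero.1 this).resolve_left (pow_ne_zero _ h0))
  · obtain ⟨M, hM⟩ := hW p
    obtain ⟨k, hk⟩ : c o ^ M * p ∈ nilAlg (D a) := Algebra.adjoin_le (by
      rintro _ ⟨k, rfl⟩
      exact ⟨2, d2 a a k⟩) hM
    have : ∀ k p, (D a)^[k] (c o ^ M * p) = c o ^ M * (D a)^[k] p := fun k => by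
      induction k with
      | zero => exact fun _ => rfl
      | succ k ih => intro p; rw [Function.iterate_succ_apply, d3, ih]; rfl
    rw [this] at hk
    exact ⟨k, (mul_eq_zero.1 hk).resolve_left (pow_ne_zero _ h0)⟩
  · rw [Fintype.linearIndependent_iff]
    intro g hg a
    have := congrFun (congrArg Derivation.coeFnAddMonoidHom hg) (c (e a))
    simp only [map_sum, Derivation.coeFnAddMonoidHom_apply, Finset.sum_apply,
      Derivation.smul_apply, hD, he.eq_iff,
      smul_eq_mul, mul_ite, mul_zero, Finset.sum_ite_eq, Finset.mem_univ, if_true,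
      Derivation.zero_apply] at this
    exact (mul_eq_zero.1 this).resolve_right (pow_ne_zero _ h0)
  · have hind := (exists_der c o h0 hW).1
    have chain : ∀ a (q : MvPolynomial (Fin n) ℂ), D a (aeval c q) = c o ^ N a * aeval c (pderiv (e a) q) := fun a q => by
      induction q using MvPolynomial.induction_on with
      | C r => simp
      | add p q hp hq => simp only [map_add, hp, hq, mul_add]
      | mul_X p k hp =>
        simp only [Derivation.leibniz, smul_eq_mul, map_add, map_mul, hp, aeval_X, hD, pderiv_X,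
          Pi.single_apply]
        split_ifs <;> simp <;> ring
    obtain ⟨M, hM⟩ := hW p
    have h1 : c o ^ M * p ∈ Algebra.adjoin ℂ {c o} := by
      rw [Algebra.adjoin_range_eq_range_aeval] at hM
      obtain ⟨q, hq⟩ := hM
      change aeval c q = _ at hq
      have := mem_adjoin_of_pderiv o q fun j hj => by
        obtain ⟨a, rfl⟩ := he1 j hj
        have h2 := chain a q
        rw [hq, d3, hp, mul_zero, eq_comm, mul_eq_zero] at h2
        exact hind (by simpa using h2.resolve_left (pow_ne_zero _ h0))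
      rw [← hq, ← aeval_X (R := ℂ) c o, ← Set.image_singleton, ← AlgHom.map_adjoin]
      exact ⟨q, this, rfl⟩
    clear hM
    induction M with
    | zero => simpa using h1
    | succ M ih =>
      apply ih
      rw [Algebra.adjoin_singleton_eq_range_aeval] at h1 ⊢
      obtain ⟨r, hr⟩ := h1
      change Polynomial.aeval _ r = _ at hr
      rw [← r.X_mul_divX_add, map_add, map_mul, Polynomial.aeval_X, Polynomial.aeval_C] at hr
      have h3 : r.coeff 0 = 0 := by
        by_contra h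
        refine hu (isUnit_of_dvd_unit (y := algebraMap ℂ _ (r.coeff 0))
          ⟨c o ^ M * p - Polynomial.aeval (c o) r.divX, ?_⟩ ((Ne.isUnit h).map _))
        linear_combination hr
      refine ⟨r.divX, mul_left_cancel₀ h0 ?_⟩
      rw [h3, map_zero] at hr
      change _ * Polynomial.aeval _ _ = _
      linear_combination hr
  · exact Derivation.eqOn_adjoin (D1 := D a) (D2 := 0) (by rintro _ rfl; exact d0 a) hp

end Crest.Agent.H4.AF
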